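import Vale.Agent.P300.Main

open scoped LinearAlgebra.Projectivization

namespace Vale.Agent.Results.P300.A_full

open Vale.Agent.P300

theorem result : ∃ (n : ℕ) (X : Set (ℙ ℂ (Fin n → ℂ))),
    IsProjAlg X ∧ IsSmoothProj X ∧ IsConnected X ∧
    (∃ (E : Type) (_ : TopologicalSpace E) (p : E → X), IsUnivCover p) ∧
    ∀ (E : Type) [TopologicalSpace E] (p : E → X), IsUnivCover p → ¬ HolConvex p :=
  main

end Vale.Agent.Results.P300.A_full
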